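import Crest.Agent.Lib.HNN.Word

/-! Norm estimates for reduced words and the unique extension property of one HNN step. -/

set_option autoImplicit false

open scoped ComplexOrder InnerProductSpace
open Filter Topology

namespace Crest.Agent.Lib.HNN

open Crest.Agent.Lib.CStarPure

variable {A : Type*} [CStarAlgebra A]
variable {τ : A →L[ℂ] ℂ} {B C : StarSubalgebra ℂ A} {ρ : Bool → ℕ → A} {v : Bool → A}

/-- All standing hypotheses for one HNN step. -/
structure Step (τ : A →L[ℂ] ℂ) (B : StarSubalgebra ℂ A) (ρ : Bool → ℕ → A) (v : Bool → A)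
    (C : StarSubalgebra ℂ A) : Prop where
  tr : IsTrace τ
  nests : Nests B ρ
  pk : Pk B ρ
  letter : Letter ρ v
  free : Free τ B ρ v
  gen : Gen B v C
  closed : IsClosed (C : Set A)

/-- Span of the words starting with `v ε`. -/
noncomputable def WS (τ : A →L[ℂ] ℂ) (B : StarSubalgebra ℂ A) (ρ : Bool → ℕ → A) (v : Bool → A) (ε : Bool) :
    Submodule ℂ A :=
  Submodule.span ℂ {w | ∃ l R x, Word τ B ρ v ε l R ∧ x ∈ B ∧ w = R * x}

/-- Span of the elements that can follow the letter `v l`. -/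
noncomputable def US (τ : A →L[ℂ] ℂ) (B : StarSubalgebra ℂ A) (ρ : Bool → ℕ → A) (v : Bool → A) (l : Bool) :
    Submodule ℂ A :=
  Submodule.span ℂ ((B : Set A) ∪ {w | ∃ ε l' R x x', Word τ B ρ v ε l' R ∧ x ∈ B ∧ x' ∈ B ∧
    Ok τ ρ l x ε ∧ w = x * R * x'})

lemma tau_span_span {X Y : Set A} {z : A} (h : ∀ x ∈ X, ∀ y ∈ Y, τ (star x * z * y) = 0)
    {x y : A} (hx : x ∈ Submodule.span ℂ X) (hy : y ∈ Submodule.span ℂ Y) :
    τ (star x * z * y) = 0 := by
  induction hx using Submodule.span_induction with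
  | mem x hx =>
    induction hy using Submodule.span_induction with
    | mem y hy => exact h x hx y hy
    | zero => simp
    | add a b _ _ ha hb => rw [mul_add, map_add, ha, hb, add_zero]
    | smul c a _ ha => rw [mul_smul_comm, map_smul, ha, smul_zero]
  | zero => simp
  | add a b _ _ ha hb => rw [star_add, add_mul, add_mul, map_add, ha, hb, add_zero]
  | smul c a _ ha => rw [star_smul, smul_mul_assoc, smul_mul_assoc, map_smul, ha, smul_zero]

namespace Step

variable (h : Step τ B ρ v C)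
include h

lemma ws_cen {ε : Bool} {z : A} (hz : z ∈ B) (hc : z ∈ Cen τ (Set.range (ρ (!ε)))) {w w' : A}
    (hw : w ∈ WS τ B ρ v ε) (hw' : w' ∈ WS τ B ρ v ε) : τ (star w * z * w') = 0 := by
  refine tau_span_span ?_ hw hw'
  rintro _ ⟨l, R, x, hR, hx, rfl⟩ _ ⟨l', R', x', hR', hx', rfl⟩
  have := h.free _ _ _ ((hR.star (h.tr.trOn B) h.nests h.letter).append hz (.inr hc) hR') _
    (star_mem hx) _ hx'
  simpa only [star_mul, mul_assoc] using this

lemma ws_us {l : Bool} {w u : A} (hw : w ∈ WS τ B ρ v (!l)) (hu : u ∈ US τ B ρ v l) :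
    τ (star w * u) = 0 := by
  rw [← mul_one (star w)]
  refine tau_span_span ?_ hw hu
  rintro _ ⟨l₁, R, x, hR, hx, rfl⟩
  have hRs := hR.star (h.tr.trOn B) h.nests h.letter
  rw [Bool.not_not] at hRs
  rintro _ (hb | ⟨ε, l', R', y, y', hR', hy, hy', hok, rfl⟩)
  · simpa only [star_mul, mul_one] using h.free _ _ _ hRs _ (star_mem hx) _ hb
  · have := h.free _ _ _ (hRs.append hy hok hR') _ (star_mem hx) _ hy'
    simpa only [star_mul, mul_assoc, one_mul] using this

omit h in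
lemma mul_us {ε l : Bool} {R : A} (hR : Word τ B ρ v ε l R) {u : A} (hu : u ∈ US τ B ρ v l) :
    R * u ∈ WS τ B ρ v ε := by
  induction hu using Submodule.span_induction with
  | mem u hu =>
    rcases hu with hb | ⟨ε', l', R', y, y', hR', hy, hy', hok, rfl⟩
    · exact Submodule.subset_span ⟨_, _, _, hR, hb, rfl⟩
    · exact Submodule.subset_span ⟨_, _, _, hR.append hy hok hR', hy', by simp only [mul_assoc]⟩
  | zero => simp
  | add a b _ _ ha hb => rw [mul_add]; exact add_mem ha hb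
  | smul c a _ ha => rw [mul_smul_comm]; exact Submodule.smul_mem _ _ ha

lemma dense_ws_us (l : Bool) {c : A} (hc : c ∈ C) :
    c ∈ closure {x | ∃ w ∈ (WS τ B ρ v (!l) : Set A), ∃ u ∈ (US τ B ρ v l : Set A), x = w + u} := by
  set V := (WS τ B ρ v (!l) ⊔ US τ B ρ v l).topologicalClosure with hVdef
  have hV : IsClosed (V : Set A) := Submodule.isClosed_topologicalClosure _
  have m1 : ∀ w ∈ WS τ B ρ v (!l), w ∈ V := fun w hw =>
    Submodule.le_topologicalClosure _ (Submodule.mem_sup_left hw)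
  have m2 : ∀ w ∈ US τ B ρ v l, w ∈ V := fun w hw =>
    Submodule.le_topologicalClosure _ (Submodule.mem_sup_right hw)
  have : c ∈ V := by
    refine Submodule.topologicalClosure_minimal _ (Submodule.span_le.mpr ?_) hV
      (spanning (h.tr.trOn B) h.nests h.pk h.letter h.gen hc)
    rintro _ (hb | ⟨ε, l', R, y, y', hR, hy, hy', rfl⟩)
    · exact m2 _ (Submodule.subset_span (.inl hb))
    · have key : ∀ y ∈ B, Ok τ ρ l y ε → 1 * y * (R * y') ∈ V := fun y hy hok =>
        m2 _ (Submodule.subset_span (.inr ⟨_, _, _, _, _, hR, hy, hy', hok, by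
          simp only [one_mul, mul_assoc]⟩))
      change y * R * y' ∈ V
      rw [mul_assoc, ← one_mul y]
      by_cases hl : l = ε
      · exact key y hy (.inl hl)
      · have hε : ε = !l := by cases ε <;> cases l <;> simp_all
        subst hε
        refine split_ind (h.tr.trOn B) h.nests h.pk l (sandwich V 1 (R * y'))
          (isClosed_sandwich hV _ _) (fun N => ?_) (fun y hy hc => key y hy (.inr hc)) hy
        rw [mem_sandwich, one_mul]
        have hi := h.letter.inter (!l) N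
        rw [Bool.not_not] at hi
        rcases hR.strip_left with ⟨rfl, rfl⟩ | ⟨ε', x₁, R₁, hx₁, hok, hR₁, rfl⟩
        · rw [← mul_assoc, ← hi, mul_assoc]
          exact m1 _ (Submodule.subset_span ⟨_, _, _, .one _, mul_mem (h.nests.mem _ _) hy', rfl⟩)
        · have : ρ l N * (v (!l) * x₁ * R₁ * y') = v (!l) * (ρ (!l) N * x₁) * R₁ * y' := by
            rw [← mul_assoc (v (!l)), hi]; simp only [mul_assoc]
          rw [this]
          exact m1 _ (Submodule.subset_span ⟨_, _, _, .cons (mul_mem (h.nests.mem _ _) hx₁)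
            (hok.imp_right (cen_mul h.nests N)) hR₁, hy', rfl⟩)
  refine closure_mono ?_ this
  intro x hx
  obtain ⟨w, hw, u, hu, rfl⟩ := Submodule.mem_sup.mp hx
  exact ⟨w, hw, u, hu, rfl⟩

lemma lb (ε : Bool) (N : ℕ) : ∃ K : ℝ, 0 ≤ K ∧ ∀ y ∈ B, ∀ w ∈ WS τ B ρ v ε,
    nrm τ (y * w) ≤ (‖y * ρ (!ε) N‖ + √(K * ‖y‖ * nrm τ y)) * nrm τ w := by
  obtain ⟨K, hK0, hK⟩ := decomp (h.tr.trOn B) h.nests (!ε) N
  refine ⟨K, hK0, fun y hy w hw => ?_⟩
  have hyy := mul_mem (star_mem hy) hy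
  obtain ⟨d, hd, hdn, hc⟩ := hK _ hyy
  have hρ := h.nests.mem (!ε) N
  have h1 := h.ws_cen (sub_mem (sub_mem hyy (mul_mem (mul_mem hρ hyy) hρ))
    (span_le h.nests _ hd)) hc hw hw
  have h2 : τ (star w * (star y * y) * w)
      = τ (star w * (ρ (!ε) N * (star y * y) * ρ (!ε) N + d) * w) := by
    rw [sub_sub, mul_sub, sub_mul, map_sub, sub_eq_zero] at h1
    exact h1
  have h3 : ‖ρ (!ε) N * (star y * y) * ρ (!ε) N‖ = ‖y * ρ (!ε) N‖ ^ 2 := by
    rw [sq, ← CStarRing.norm_star_mul_self, star_mul,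
      ((h.nests.nest _).proj N).isSelfAdjoint.star_eq]
    simp only [mul_assoc]
  have h4 : ‖d‖ ≤ K * ‖y‖ * nrm τ y := hdn.trans (by
    rw [mul_assoc]
    gcongr
    simpa using h.tr.nrm_mul_le (star y) y)
  have n0 := nrm_nonneg τ y
  have h5 : nrm τ (y * w) ^ 2 ≤ (‖y * ρ (!ε) N‖ ^ 2 + K * ‖y‖ * nrm τ y) * nrm τ w ^ 2 := by
    rw [← h.tr.re_conj_star_mul, h2]
    refine (Complex.re_le_norm _).trans ((h.tr.norm_conj_le _ _).trans ?_)
    gcongr
    exact (norm_add_le _ _).trans (by rw [h3]; gcongr)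
  have n1 := nrm_nonneg τ w
  refine (pow_le_pow_iff_left₀ (nrm_nonneg _ _) (by positivity) two_ne_zero).mp (h5.trans ?_)
  rw [mul_pow]
  gcongr
  have := Real.sq_sqrt (by positivity : 0 ≤ K * ‖y‖ * nrm τ y)
  nlinarith [Real.sqrt_nonneg (K * ‖y‖ * nrm τ y), norm_nonneg (y * ρ (!ε) N)]

/-- The basic norm estimate for a word. -/
theorem word_bound (ε l : Bool) (N N' : ℕ) : ∃ K : ℝ, 0 ≤ K ∧ ∀ R, Word τ B ρ v ε l R →
    ∀ y ∈ B, ∀ y' ∈ B, ‖y * R * y'‖ ≤
      (‖y * ρ (!ε) N‖ + √(K * ‖y‖ * nrm τ y)) * ‖R‖ * ‖y'‖ +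
      (‖star y' * ρ l N'‖ + √(K * ‖y'‖ * nrm τ y')) * ‖y‖ * ‖R‖ := by
  obtain ⟨K, hK0, hK⟩ := h.lb ε N
  obtain ⟨K', hK0', hK'⟩ := h.lb (!l) N'
  refine ⟨K + K', by positivity, fun R hR y hy y' hy' => ?_⟩
  have := h.closed
  have n0 := nrm_nonneg τ y
  have n1 := nrm_nonneg τ y'
  refine h.tr.pingpong C (h.gen.le hy) (hR.mem h.gen.le h.gen.mem) (h.gen.le hy')
    (WS τ B ρ v ε) (WS τ B ρ v (!l)) (US τ B ρ v l) (fun w hw u hu => h.ws_us hw hu)
    (fun c hc => h.dense_ws_us l hc) (fun u hu => mul_us hR hu) (by positivity) (by positivity)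
    (fun w hw => (hK y hy w hw).trans ?_) (fun w hw => (hK' _ (star_mem hy') w hw).trans ?_)
  · have := nrm_nonneg τ w
    gcongr
    linarith
  · have := nrm_nonneg τ w
    rw [Bool.not_not, norm_star, h.tr.nrm_star]
    gcongr
    linarith

end Step

/-- A bounded net in `B` that is small in `L²` and asymptotically orthogonal to the nest. -/
structure Thin (τ : A →L[ℂ] ℂ) (B : StarSubalgebra ℂ A) (r : ℕ → A) {ι : Type*} (F : Filter ι)
    (y : ι → A) : Prop where
  mem : ∀ i, y i ∈ B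
  bdd : ∃ M, ∀ i, ‖y i‖ ≤ M
  l2 : Tendsto (fun i => nrm τ (y i)) F (𝓝 0)
  orth : ∀ η > 0, ∃ N, ∀ᶠ i in F, ‖y i * r N‖ ≤ η

theorem Step.tendsto_word (h : Step τ B ρ v C) {ε l : Bool} {R : A} (hR : Word τ B ρ v ε l R)
    {ι : Type*} {F : Filter ι} {y y' : ι → A} (hy : Thin τ B (ρ (!ε)) F y)
    (hy' : Thin τ B (ρ l) F (fun i => star (y' i))) :
    Tendsto (fun i => ‖y i * R * y' i‖) F (𝓝 0) := by
  obtain ⟨M, hM⟩ := hy.bdd
  obtain ⟨M', hM'⟩ := hy'.bdd
  simp only [norm_star] at hM'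
  have hl2' : Tendsto (fun i => nrm τ (y' i)) F (𝓝 0) := by
    simpa only [h.tr.nrm_star] using hy'.l2
  have key : ∀ η > 0, ∀ᶠ i in F, ‖y i * R * y' i‖ ≤
      (η + η) * ‖R‖ * |M'| + (η + η) * |M| * ‖R‖ := by
    intro η hη
    obtain ⟨N, hN⟩ := hy.orth η hη
    obtain ⟨N', hN'⟩ := hy'.orth η hη
    obtain ⟨K, hK0, hK⟩ := h.word_bound ε l N N'
    have t1 : Tendsto (fun i => √(K * |M| * nrm τ (y i))) F (𝓝 0) := by
      simpa using (hy.l2.const_mul (K * |M|)).sqrt
    have t2 : Tendsto (fun i => √(K * |M'| * nrm τ (y' i))) F (𝓝 0) := by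
      simpa using (hl2'.const_mul (K * |M'|)).sqrt
    filter_upwards [hN, hN', t1.eventually (ge_mem_nhds hη), t2.eventually (ge_mem_nhds hη)]
      with i a1 a2 a3 a4
    have b1 : ‖y i‖ ≤ |M| := (hM i).trans (le_abs_self _)
    have b2 : ‖y' i‖ ≤ |M'| := (hM' i).trans (le_abs_self _)
    have n0 := nrm_nonneg τ (y i)
    have n1 := nrm_nonneg τ (y' i)
    refine (hK R hR _ (hy.mem i) _ (by simpa using star_mem (hy'.mem i))).trans ?_
    gcongr
    · exact le_trans (by gcongr) a3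
    · exact le_trans (by gcongr) a4
  rw [Metric.tendsto_nhds]
  intro δ hδ
  have : Tendsto (fun η : ℝ => (η + η) * ‖R‖ * |M'| + (η + η) * |M| * ‖R‖) (𝓝[>] 0) (𝓝 0) := by
    have : Continuous (fun η : ℝ => (η + η) * ‖R‖ * |M'| + (η + η) * |M| * ‖R‖) := by fun_prop
    simpa using tendsto_nhdsWithin_of_tendsto_nhds (s := Set.Ioi 0) (this.tendsto 0)
  obtain ⟨η, h1, h2⟩ := ((this.eventually (gt_mem_nhds hδ)).and self_mem_nhdsWithin).exists
  filter_upwards [key η h2] with i hi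
  rw [dist_zero_right, norm_norm]
  exact hi.trans_lt h1

/-- For a free letter (trivial nests) words are small between elements of small `L²` norm. -/
theorem Step.free_small (h : Step τ B ρ v C) (h1 : ∀ a, ρ a 1 = 0) {ε l : Bool} {R : A}
    (hR : Word τ B ρ v ε l R) {η : ℝ} (hη : 0 < η) :
    ∃ δ > 0, ∀ y ∈ B, ‖y‖ ≤ 1 → nrm τ y ≤ δ → ‖y * R * star y‖ ≤ η := by
  by_contra! hn
  choose! y hy using hn
  have hpos : ∀ n : ℕ, (0 : ℝ) < 1 / (n + 1) := fun n => by positivity
  have hthin : ∀ a, Thin τ B (ρ a) atTop (fun n : ℕ => y (1 / (n + 1))) := fun a =>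
    { mem := fun n => (hy _ (hpos n)).1
      bdd := ⟨1, fun n => (hy _ (hpos n)).2.1⟩
      l2 := squeeze_zero (fun _ => nrm_nonneg _ _) (fun n => (hy _ (hpos n)).2.2.1)
        tendsto_one_div_add_atTop_nhds_zero_nat
      orth := fun η hη => ⟨1, Eventually.of_forall fun n => by simp [h1, hη.le]⟩ }
  have := h.tendsto_word hR (hthin _) (y' := fun n : ℕ => star (y (1 / (n + 1))))
    (by simpa only [star_star] using hthin _)
  obtain ⟨n, hn⟩ := (this.eventually (gt_mem_nhds hη)).exists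
  exact lt_asymm hn (hy _ (hpos n)).2.2.2

section peak
variable {r : ℕ → A}

lemma peak_eq (hr : Nest r) {f : A →L[ℂ] ℂ} (hf : IsState f) (h1 : ∀ N, f (r N) = 1) {x : A}
    (hx : Tendsto (fun N => ‖r N * x * r N‖) atTop (𝓝 0)) : f x = 0 := by
  rw [← norm_le_zero_iff]
  refine ge_of_tendsto hx (Eventually.of_forall fun N => ?_)
  rw [← hf.map_conj_proj (hr.proj N) (h1 N)]
  exact hf.norm_apply_le _

lemma peak_bpure (hρ : Nests B ρ) (hpk : Pk B ρ) {a : Bool} {f : A →L[ℂ] ℂ} (hf : IsState f)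
    (h1 : ∀ N, f (ρ a N) = 1) : BPure B f := by
  refine ⟨hf, fun χ hχ hk x hx => ?_⟩
  have h2 : ∀ N, χ (ρ a N) = 1 := fun N => by
    have := hk _ (sub_mem (hρ.mem a N) (one_mem B))
      (hf.nrm_sub_one_of_proj ((hρ.nest a).proj N) (h1 N))
    have h3 := hχ.map_mul_eq_zero this 1
    rwa [one_mul, map_sub, hχ.map_one, sub_eq_zero] at h3
  obtain ⟨c, hc⟩ := hpk a x hx
  have e1 := peak_eq (hρ.nest a) hf h1 hc
  have e2 := peak_eq (hρ.nest a) hχ h2 hc
  rw [map_sub, map_smul, sub_eq_zero] at e1 e2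
  rw [e1, e2, hf.map_one, hχ.map_one]

lemma norm_compress_le (hr : Nest r) (hr' : ℕ → A) (hn' : Nest hr') {N M N' M' : ℕ} (h : N ≤ M)
    (h' : N' ≤ M') (x : A) : ‖r M * x * hr' M'‖ ≤ ‖r N * x * hr' N'‖ := by
  have : r M * x * hr' M' = r M * (r N * x * hr' N') * hr' M' := by
    rw [← mul_assoc, ← mul_assoc, hr.mul_of_ge h, mul_assoc _ (hr' N'), hn'.mul_of_le h']
  rw [this]
  have a1 := (hr.proj M).norm_le
  have a2 := (hn'.proj M').norm_le
  calc _ ≤ ‖r M‖ * ‖r N * x * hr' N'‖ * ‖hr' M'‖ := norm_mul₃_le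
    _ ≤ 1 * ‖r N * x * hr' N'‖ * 1 := by gcongr
    _ = _ := by ring

end peak

/-- One HNN step has the unique extension property, given that peak states kill all words. -/
theorem Step.ext (h : Step τ B ρ v C) [IsClosed (B : Set A)] (hB : Small τ B)
    (H : ∀ a χ, IsState χ → (∀ N, χ (ρ a N) = 1) → ∀ w ∈ Elem τ B ρ v, χ w = 0) :
    Ext τ B C := by
  let _ := CStarAlgebra.spectralOrder A
  have _ := CStarAlgebra.spectralOrderedRing A
  have hnull : ∀ w ∈ Elem τ B ρ v, w ∈ Null τ B := by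
    rintro _ ⟨ε, l, R, x₀, x₁, hR, hx₀, hx₁, rfl⟩
    refine ⟨fun y hy => ?_, fun ω hω => ?_⟩
    · simpa only [mul_assoc] using h.free _ _ _ hR _ (mul_mem hy hx₀) _ hx₁
    obtain ⟨ι, F, γ, hF, hγ, hk, hanti⟩ := exists_kill B hω.1
    have hγ1 : ∀ i, ‖γ i‖ ≤ 1 := fun i =>
      (CStarAlgebra.norm_le_one_iff_of_nonneg _ (hγ i).2.1).mpr (hγ i).2.2.1
    have hsa : ∀ i, star (γ i) = γ i := fun i => (IsSelfAdjoint.of_nonneg (hγ i).2.1).star_eq
    have hl2 := h.tr.tendsto_nrm_zero hB hω hγ1 {y | y ∈ B ∧ nrm ω y = 0}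
      (fun y hy => hk y hy.1 hy.2) (fun χ hχ hy => hω.2 χ hχ fun y h1 h2 => hy y ⟨h1, h2⟩)
    have dich : ∀ a, ∀ x ∈ B, Thin τ B (ρ a) F (fun i => γ i * x) ∨ ω (x₀ * R * x₁) = 0 := by
      intro a x hx
      by_cases hth : ∀ η > 0, ∃ N, ∀ᶠ i in F, ‖γ i * x * ρ a N‖ ≤ η
      · refine .inl ⟨fun i => mul_mem (hγ i).1 hx, ⟨‖x‖, fun i => ?_⟩, ?_, hth⟩
        · exact (norm_mul_le _ _).trans (by nlinarith [hγ1 i, norm_nonneg x])
        · refine squeeze_zero (fun _ => nrm_nonneg _ _) (fun i => h.tr.nrm_mul_le_right _ _) ?_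
          simpa using hl2.mul_const ‖x‖
      · right
        push Not at hth
        obtain ⟨η, hη, hth⟩ := hth
        obtain ⟨χ, hχ, hχ1⟩ := (h.nests.nest a).exists_peak (fun N h0 => by
          obtain ⟨i, hi⟩ := (hth N).exists
          rw [h0, mul_zero, norm_zero] at hi
          linarith)
        refine hω.eq_zero_of_equiv (peak_bpure h.nests h.pk hχ hχ1) (fun i => (hγ i).1) hγ1 hk hx
          (fun ht => ?_) (fun χ' hχ' he k hk => ?_)
        · have ht' := (tendsto_zero_iff_norm_tendsto_zero.mp ht).eventually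
            (gt_mem_nhds (by positivity : 0 < η ^ 2 / 2))
          obtain ⟨i, hi⟩ := ht'.exists
          have hB' : star x * γ i * x ∈ B := mul_mem (mul_mem (star_mem hx) (hγ i).1) hx
          obtain ⟨c, hc⟩ := h.pk a _ hB'
          have e1 := peak_eq (h.nests.nest a) hχ hχ1 hc
          rw [map_sub, map_smul, hχ.map_one, sub_eq_zero, smul_eq_mul, mul_one] at e1
          obtain ⟨N, hN⟩ := (hc.eventually (gt_mem_nhds (by positivity : 0 < η ^ 2 / 2))).exists
          obtain ⟨j, hj1, hj2⟩ := ((hth N).and_eventually (hanti i)).exists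
          have hp := (h.nests.nest a).proj N
          have b1 : ‖ρ a N * (star x * γ i * x) * ρ a N‖ < η ^ 2 := by
            have e : ρ a N * (star x * γ i * x) * ρ a N =
                ρ a N * (star x * γ i * x - c • 1) * ρ a N + c • ρ a N := by
              rw [mul_sub, sub_mul, mul_smul_comm, mul_one, smul_mul_assoc,
                hp.isIdempotentElem.eq, sub_add_cancel]
            rw [e]
            refine (norm_add_le _ _).trans_lt ?_
            rw [e1] at hi
            rw [norm_smul]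
            nlinarith [hp.norm_le, norm_nonneg c]
          have b2 : ‖γ j * x * ρ a N‖ ^ 2 ≤ ‖ρ a N * (star x * γ i * x) * ρ a N‖ := by
            rw [sq, ← CStarRing.norm_star_mul_self]
            refine CStarAlgebra.norm_le_norm_of_nonneg_of_le (star_mul_self_nonneg _) ?_
            have c1 : γ j * γ j ≤ γ i := by
              refine le_trans ?_ hj2
              have := CStarAlgebra.pow_antitone (hγ j).2.1 (hγ j).2.2.1 (by norm_num : 1 ≤ 2)
              simpa [sq] using this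
            have c2 := star_left_conjugate_le_conjugate c1 (x * ρ a N)
            simpa only [star_mul, hsa, hp.isSelfAdjoint.star_eq, mul_assoc] using c2
          nlinarith
        · refine H a χ' hχ' (fun N => (he _ (h.nests.mem a N)).trans (hχ1 N)) _
            ⟨_, _, _, _, _, hR, mul_mem (star_mem hk) hx₀, mul_mem hx₁ hk, by simp only [mul_assoc]⟩
    rcases dich (!ε) x₀ hx₀ with h₀ | h₀
    swap; · exact h₀
    rcases dich l (star x₁) (star_mem hx₁) with h₁ | h₁
    swap; · exact h₁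
    have := h.tendsto_word hR h₀ (y' := fun i => x₁ * γ i) (by simpa only [star_mul, hsa] using h₁)
    rw [← norm_le_zero_iff]
    refine ge_of_tendsto this (Eventually.of_forall fun i => ?_)
    rw [← hω.1.map_conj_of_nrm (hγ i).2.2.2, hsa]
    simpa only [mul_assoc] using hω.1.norm_apply_le (γ i * x₀ * R * (x₁ * γ i))
  intro x hx
  refine closure_minimal ?_ (h.tr.isClosed_Good B)
    (spanning (h.tr.trOn B) h.nests h.pk h.letter h.gen hx)
  intro y hy
  rw [SetLike.mem_coe, Submodule.span_union] at hy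
  obtain ⟨b, hb, w, hw, rfl⟩ := Submodule.mem_sup.mp hy
  refine ⟨b, ?_, ?_⟩
  · exact (Submodule.span_le.mpr (fun _ h => h) : _ ≤ B.toSubalgebra.toSubmodule) hb
  · rw [add_sub_cancel_left]
    exact (Submodule.span_le.mpr hnull : _ ≤ Null τ B) hw

end Crest.Agent.Lib.HNN
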