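import Crest.Agent.Lib.HNN.Est

/-! Peak states kill reduced words when the two peak states are inequivalent. -/

set_option autoImplicit false

open scoped ComplexOrder InnerProductSpace
open Filter Topology

namespace Crest.Agent.Lib.HNN

open Crest.Agent.Lib.CStarPure

variable {A : Type*} [CStarAlgebra A]
variable {τ : A →L[ℂ] ℂ} {B C : StarSubalgebra ℂ A} {ρ : Bool → ℕ → A} {v : Bool → A}

/-- The compressions of `x` between the nests tend to zero. -/
def TZ (ρ : Bool → ℕ → A) (a : Bool) (x : A) (b : Bool) : Prop :=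
  Tendsto (fun N => ‖ρ a N * x * ρ b N‖) atTop (𝓝 0)

lemma TZ.add {a b : Bool} {x y : A} (hx : TZ ρ a x b) (hy : TZ ρ a y b) : TZ ρ a (x + y) b := by
  refine squeeze_zero (fun _ => norm_nonneg _) (fun N => ?_) (by simpa using Tendsto.add hx hy)
  rw [mul_add, add_mul]
  exact norm_add_le _ _

lemma TZ.smul {a b : Bool} {x : A} (hx : TZ ρ a x b) (c : ℂ) : TZ ρ a (c • x) b := by
  have := Tendsto.const_mul ‖c‖ hx
  simpa [TZ, norm_smul] using this

lemma TZ.star (hρ : Nests B ρ) {a b : Bool} {x : A} (hx : TZ ρ a x b) : TZ ρ b (star x) a := by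
  refine Tendsto.congr (fun N => ?_) hx
  rw [← norm_star, star_mul, star_mul, ((hρ.nest a).proj N).isSelfAdjoint.star_eq,
    ((hρ.nest b).proj N).isSelfAdjoint.star_eq, mul_assoc]

lemma TZ.mul_v (hv : Letter ρ v) {a l : Bool} {x : A} (hx : TZ ρ a x (!l)) :
    TZ ρ a (x * v l) l := by
  refine squeeze_zero (fun _ => norm_nonneg _) (fun N => ?_) hx
  rw [← mul_assoc, mul_assoc _ (v l), hv.inter, ← mul_assoc]
  exact (norm_mul_le _ _).trans (by
    nlinarith [hv.norm_le l, norm_nonneg (ρ a N * x * ρ (!l) N)])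

lemma TZ.v_mul (hv : Letter ρ v) {ε b : Bool} {x : A} (hx : TZ ρ ε x b) :
    TZ ρ (!ε) (v ε * x) b := by
  refine squeeze_zero (fun _ => norm_nonneg _) (fun N => ?_) hx
  rw [← mul_assoc, ← hv.inter, mul_assoc, mul_assoc, ← mul_assoc (ρ ε N)]
  exact (norm_mul_le _ _).trans (by
    nlinarith [hv.norm_le ε, norm_nonneg (ρ ε N * x * ρ b N)])

lemma cen_tz (hτ : IsTrace τ) (hρ : Nests B ρ) (hpk : Pk B ρ) {a : Bool} {x : A} (hx : x ∈ B)
    (hc : x ∈ Cen τ (Set.range (ρ a))) : TZ ρ a x a := by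
  obtain ⟨c, hc'⟩ := hpk a x hx
  by_cases h0 : ∃ N, ρ a N = 0
  · obtain ⟨N, hN⟩ := h0
    refine tendsto_const_nhds.congr' ?_
    filter_upwards [eventually_ge_atTop N] with M hM
    rw [← (hρ.nest a).mul_of_le hM, hN]
    simp
  · push Not at h0
    have : c = 0 := by
      rw [← norm_le_zero_iff]
      refine ge_of_tendsto hc' (Eventually.of_forall fun N => ?_)
      have hp := (hρ.nest a).proj N
      have hpos : 0 < nrm τ (ρ a N) := (nrm_nonneg _ _).lt_of_ne' fun h => h0 N (hτ.faithful _ h)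
      have h1 := hτ.norm_conj_le (ρ a N) (ρ a N * (x - c • 1) * ρ a N)
      have h2 : τ (star (ρ a N) * (ρ a N * (x - c • 1) * ρ a N) * ρ a N)
          = -(c * ((nrm τ (ρ a N) ^ 2 : ℝ) : ℂ)) := by
        rw [hτ.nrm_sq', hp.isSelfAdjoint.star_eq, hτ.comm, ← mul_assoc, hp.isIdempotentElem.eq,
          ← mul_assoc, ← mul_assoc, hp.isIdempotentElem.eq, hτ.comm, ← mul_assoc,
          hp.isIdempotentElem.eq, mul_sub, map_sub, hc _ ⟨N, rfl⟩]
        simp
      rw [h2, norm_neg, norm_mul, Complex.norm_real, Real.norm_of_nonneg (by positivity)] at h1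
      exact le_of_mul_le_mul_right h1 (by positivity)
    simpa [this, TZ] using hc'

namespace Step

variable (h : Step τ B ρ v C) (hin : Inq B ρ)
  (hs : ∀ a, Tendsto (fun N => nrm τ (ρ a N)) atTop (𝓝 0))
include h hin hs

omit hs in
lemma ok_tz {l ε : Bool} {x : A} (hx : x ∈ B) (hok : Ok τ ρ l x ε) : TZ ρ l x (!ε) := by
  by_cases hl : l = ε
  · rw [← hl]; exact hin l x hx
  · have : (!ε) = l := by cases ε <;> cases l <;> simp_all
    rw [this]
    exact cen_tz h.tr h.nests h.pk hx (hok.resolve_left hl)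

omit hin in
lemma thin_of_tz {a b : Bool} {x : A} (hx : x ∈ B) (ht : TZ ρ a x b) :
    Thin τ B (ρ b) atTop (fun N => ρ a N * x) where
  mem := fun N => mul_mem (h.nests.mem a N) hx
  bdd := ⟨‖x‖, fun N => (norm_mul_le _ _).trans (by
    nlinarith [((h.nests.nest a).proj N).norm_le, norm_nonneg x])⟩
  l2 := squeeze_zero (fun _ => nrm_nonneg _ _) (fun N => h.tr.nrm_mul_le_right _ _)
    (by simpa using (hs a).mul_const ‖x‖)
  orth := fun η hη => by
    obtain ⟨N, hN⟩ := (ht.eventually (ge_mem_nhds hη)).exists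
    refine ⟨N, (eventually_ge_atTop N).mono fun M hM => le_trans ?_ hN⟩
    exact norm_compress_le (h.nests.nest a) _ (h.nests.nest b) hM le_rfl x

omit hin in
lemma claimA {ε l a b : Bool} {R x₀ x₁ : A} (hR : Word τ B ρ v ε l R) (hx₀ : x₀ ∈ B)
    (hx₁ : x₁ ∈ B) (h₀ : TZ ρ a x₀ (!ε)) (h₁ : TZ ρ b (star x₁) l) :
    TZ ρ a (x₀ * R * x₁) b := by
  have := h.tendsto_word hR (h.thin_of_tz hs hx₀ h₀) (y' := fun N => x₁ * ρ b N) (by
    simpa only [star_mul, ((h.nests.nest b).proj _).isSelfAdjoint.star_eq] using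
      h.thin_of_tz hs (star_mem hx₁) h₁)
  simpa only [TZ, mul_assoc] using this

lemma claimB {ε l a b : Bool} {R x₀ x₁ : A} (hR : Word τ B ρ v ε l R) (hx₀ : x₀ ∈ B)
    (hx₁ : x₁ ∈ B) (h₀ : TZ ρ a x₀ (!ε)) : TZ ρ a (x₀ * R * x₁) b := by
  by_cases hb : b = l
  · subst hb
    obtain ⟨c, hc⟩ := h.pk b x₁ hx₁
    have e : x₀ * R * x₁ = x₀ * R * (x₁ - c • 1) + c • (x₀ * R) := by
      rw [mul_sub, mul_smul_comm, mul_one, sub_add_cancel]
    rw [e]
    refine (h.claimA hs hR hx₀ (sub_mem hx₁ (SMulMemClass.smul_mem _ (one_mem _))) h₀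
      (TZ.star h.nests hc)).add (TZ.smul ?_ c)
    rcases hR.strip_right with ⟨rfl, rfl⟩ | ⟨l', x', R', hx', hok, hR', rfl⟩
    · exact h₀.mul_v h.letter
    · have := (h.claimA hs hR' hx₀ hx' h₀ ((h.ok_tz hin hx' hok).star h.nests)).mul_v h.letter
      simpa only [mul_assoc] using this
  · have : l = !b := by cases b <;> cases l <;> simp_all
    subst this
    exact h.claimA hs hR hx₀ hx₁ h₀ (hin b _ (star_mem hx₁))

theorem tz_word {ε l a : Bool} {R x₀ x₁ : A} (hR : Word τ B ρ v ε l R) (hx₀ : x₀ ∈ B)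
    (hx₁ : x₁ ∈ B) : TZ ρ a (x₀ * R * x₁) a := by
  by_cases ha : a = ε
  · subst ha
    exact h.claimB hin hs hR hx₀ hx₁ (hin a _ hx₀)
  · have : a = !ε := by cases a <;> cases ε <;> simp_all
    subst this
    obtain ⟨c, hc⟩ := h.pk (!ε) x₀ hx₀
    have e : x₀ * R * x₁ = (x₀ - c • 1) * R * x₁ + c • (R * x₁) := by
      rw [sub_mul, sub_mul, smul_mul_assoc, smul_mul_assoc, one_mul, sub_add_cancel]
    rw [e]
    refine (h.claimB hin hs hR (sub_mem hx₀ (SMulMemClass.smul_mem _ (one_mem _))) hx₁ hc).add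
      (TZ.smul ?_ c)
    rcases hR.strip_left with ⟨rfl, rfl⟩ | ⟨ε', x', R', hx', hok, hR', rfl⟩
    · exact TZ.v_mul h.letter (hin _ _ hx₁)
    · have := (h.claimB hin hs (b := !ε) hR' hx' hx₁ (h.ok_tz hin hx' hok)).v_mul h.letter
      simpa only [mul_assoc] using this

/-- One HNN step over valid data has the unique extension property. -/
theorem ext_of_inq [IsClosed (B : Set A)] (hB : Small τ B) : Ext τ B C := by
  refine h.ext hB (fun a χ hχ h1 => ?_)
  rintro _ ⟨ε, l, R, x₀, x₁, hR, hx₀, hx₁, rfl⟩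
  exact peak_eq (h.nests.nest a) hχ h1 (h.tz_word hin hs hR hx₀ hx₁)

end Step

/-- The peak property passes to an extension with unique extensions of pure states. -/
lemma Pk.of_ext (hρ : Nests B ρ) (hpk : Pk B ρ) (hE : Ext τ B C) : Pk C ρ := by
  intro a x hx
  obtain ⟨b, hb, h1⟩ := hE hx
  obtain ⟨c, hc⟩ := hpk a b hb
  refine ⟨c, ?_⟩
  have h2 : TZ ρ a (x - b) a := (hρ.nest a).tendsto_of_peak fun f hf hf1 =>
    h1.2 f (peak_bpure hρ hpk hf hf1)
  have := TZ.add h2 hc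
  rwa [sub_add_sub_cancel] at this

end Crest.Agent.Lib.HNN
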