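import Crest.Agent.Lib.HNN.Peak

/-! Transfinite systems of HNN extensions: unique extension of pure states from closed sets of
letters. -/

set_option autoImplicit false

open scoped ComplexOrder InnerProductSpace
open Filter Topology Set

namespace Crest.Agent.Lib.HNN

open Crest.Agent.Lib.CStarPure

variable {A : Type*} [CStarAlgebra A]

section free
variable {τ : A →L[ℂ] ℂ} {ρ σ : Bool → ℕ → A} {v w : Bool → A}

lemma Free.of_directed (hτ : IsTrace τ) {B₀ B : StarSubalgebra ℂ A} [IsClosed (B₀ : Set A)]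
    (hρ : ∀ a N, ρ a N ∈ B₀) (𝓑 : Set (StarSubalgebra ℂ A)) (hdir : DirectedOn (· ≤ ·) 𝓑)
    (hne : 𝓑.Nonempty) (hle : ∀ D ∈ 𝓑, B₀ ≤ D ∧ D ≤ B)
    (hcl : ∀ x ∈ B, x ∈ closure (⋃ D ∈ 𝓑, (D : Set A)))
    (hsp : ∀ x ∈ B, ∃ b ∈ B₀, x - b ∈ Cen τ B₀) (hfree : ∀ D ∈ 𝓑, Free τ D ρ v) :
    Free τ B ρ v := by
  have hok : ∀ ε ε' x, x ∈ B → Ok τ ρ ε x ε' →
      x ∈ closure {y | ∃ D ∈ 𝓑, y ∈ D ∧ Ok τ ρ ε y ε'} := by
    intro ε ε' x hx hok
    rcases hok with h | h
    · refine closure_mono ?_ (hcl x hx)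
      intro y hy
      obtain ⟨D, hD, hy⟩ := mem_iUnion₂.mp hy
      exact ⟨D, hD, hy, .inl h⟩
    · have hc : Cen τ B₀ ≤ Cen τ (range (ρ ε)) := Cen_anti τ (by rintro _ ⟨N, rfl⟩; exact hρ ε N)
      obtain ⟨b, hb, h1⟩ := hsp x hx
      rw [Metric.mem_closure_iff]
      intro η hη
      obtain ⟨y, hy, hd⟩ := Metric.mem_closure_iff.mp (hcl x hx) (η / 2) (by positivity)
      obtain ⟨D, hD, hy⟩ := mem_iUnion₂.mp hy
      obtain ⟨b', hb', h2⟩ := hsp y ((hle D hD).2 hy)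
      refine ⟨y - (b' - b), ⟨D, hD, sub_mem hy ((hle D hD).1 (sub_mem hb' hb)), .inr ?_⟩, ?_⟩
      · have := add_mem (sub_mem h (hc h1)) (hc h2)
        convert this using 1
        abel
      · have h3 : ‖b' - b‖ ≤ ‖y - x‖ := hτ.norm_le_of_cen (sub_mem hb' hb) (by
          have := sub_mem h2 h1
          convert this using 1
          abel)
        rw [dist_eq_norm] at hd ⊢
        rw [norm_sub_rev] at h3
        have : x - (y - (b' - b)) = (x - y) - (b - b') := by abel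
        rw [this]
        rw [norm_sub_rev y] at h3
        linarith [norm_sub_le (x - y) (b - b')]
  have hw : ∀ ε l R, Word τ B ρ v ε l R → R ∈ closure {R | ∃ D ∈ 𝓑, Word τ D ρ v ε l R} := by
    intro ε l R hR
    induction hR with
    | one ε =>
      obtain ⟨D, hD⟩ := hne
      exact subset_closure ⟨D, hD, .one ε⟩
    | @cons ε ε' l x R hx hk _ ih =>
      refine map_mem_closure₂ (f := fun x R => v ε * x * R) (by fun_prop) (hok _ _ _ hx hk) ih ?_
      rintro y ⟨D, hD, hy, hk'⟩ R' ⟨D', hD', hR'⟩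
      obtain ⟨E, hE, h1, h2⟩ := hdir D hD D' hD'
      exact ⟨E, hE, .cons (h1 hy) hk' (hR'.mono h2)⟩
  intro ε l R hR x₀ h₀ x₁ h₁
  rw [hτ.comm, ← mul_assoc]
  have : τ (x₁ * x₀ * R) ∈ closure ({0} : Set ℂ) := by
    refine map_mem_closure₂ (f := fun x R => τ (x * R)) (by fun_prop) (hcl _ (mul_mem h₁ h₀))
      (hw ε l R hR) ?_
    rintro y hy R' ⟨D', hD', hR'⟩
    obtain ⟨D, hD, hy⟩ := mem_iUnion₂.mp hy
    obtain ⟨E, hE, h1, h2⟩ := hdir D hD D' hD'
    simpa using hfree E hE _ _ _ (hR'.mono h2) y (h1 hy) 1 (one_mem _)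
  simpa using this

lemma exists_split (hτ : IsTrace τ) {B C : StarSubalgebra ℂ A} [IsClosed (B : Set A)]
    (hσ : Nests B σ) (hpk : Pk B σ) (hw : Letter σ w) (hf : Free τ B σ w) (hC : Gen B w C)
    {x : A} (hx : x ∈ C) :
    ∃ c ∈ B, x - c ∈ (Submodule.span ℂ (Elem τ B σ w)).topologicalClosure ∧ x - c ∈ Cen τ B := by
  have hle : (Submodule.span ℂ (Elem τ B σ w)).topologicalClosure ≤ Cen τ B := by
    refine Submodule.topologicalClosure_minimal _ (Submodule.span_le.mpr ?_) (isClosed_Cen _ _)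
    rintro _ ⟨ε, l, R, x₀, x₁, hR, hx₀, hx₁, rfl⟩ y hy
    simpa only [mul_assoc] using hf _ _ _ hR _ (mul_mem hy hx₀) _ hx₁
  have : x ∈ {x | ∃ c ∈ B, x - c ∈ (Submodule.span ℂ (Elem τ B σ w)).topologicalClosure} := by
    refine closure_minimal ?_ (hτ.isClosed_split (Submodule.isClosed_topologicalClosure _) hle)
      (spanning (hτ.trOn B) hσ hpk hw hC hx)
    intro y hy
    rw [SetLike.mem_coe, Submodule.span_union] at hy
    obtain ⟨b, hb, n, hn, rfl⟩ := Submodule.mem_sup.mp hy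
    refine ⟨b, (Submodule.span_le.mpr (fun _ h => h) : _ ≤ B.toSubalgebra.toSubmodule) hb, ?_⟩
    rw [add_sub_cancel_left]
    exact Submodule.le_topologicalClosure _ hn
  obtain ⟨c, hc, h⟩ := this
  exact ⟨c, hc, h, hle h⟩

/-- Freeness of an earlier letter over the extension by a later letter. -/
lemma Free.succ (hτ : IsTrace τ) {C₀ C₁ D : StarSubalgebra ℂ A} [IsClosed (C₀ : Set A)]
    (hσ : Nests C₀ σ) (hpk : Pk C₀ σ) (hw : Letter σ w) (hf : Free τ D σ w) (hC : Gen C₀ w C₁)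
    (hD : C₀ ≤ D) (hρ : ∀ a N, ρ a N ∈ C₀) (hv : ∀ a, v a ∈ D) (h : Free τ C₀ ρ v) :
    Free τ C₁ ρ v := by
  have sp := fun x (hx : x ∈ C₁) => exists_split hτ hσ hpk hw (hf.mono hD) hC hx
  let β : Bool → Set A := fun ε => {R | ∃ l₀ R₀ y e e' Ω z, Word τ C₀ ρ v ε l₀ R₀ ∧ y ∈ C₀ ∧
    Word τ D σ w e e' Ω ∧ z ∈ D ∧ R = R₀ * y * Ω * z}
  let V : Bool → Bool → Submodule ℂ A := fun ε l =>
    (Submodule.span ℂ ({R | Word τ C₀ ρ v ε l R} ∪ β ε)).topologicalClosure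
  have hV : ∀ ε l, IsClosed (V ε l : Set A) := fun _ _ => Submodule.isClosed_topologicalClosure _
  have m1 : ∀ {ε l R}, Word τ C₀ ρ v ε l R → R ∈ V ε l := fun hR =>
    Submodule.le_topologicalClosure _ (Submodule.subset_span (.inl hR))
  have m2 : ∀ {ε l R}, R ∈ β ε → R ∈ V ε l := fun hR =>
    Submodule.le_topologicalClosure _ (Submodule.subset_span (.inr hR))
  have junc : ∀ {ε l R y y'} e e', Word τ C₀ ρ v ε l R → y ∈ C₀ → y' ∈ C₀ →
      y * R * y' ∈ D ∧ Ok τ σ e (y * R * y') e' := by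
    intro ε l R y y' e e' hR hy hy'
    refine ⟨mul_mem (mul_mem (hD hy) (hR.mem hD hv)) (hD hy'), .inr ?_⟩
    rintro _ ⟨N, rfl⟩
    simpa only [mul_assoc] using h _ _ _ hR _ (mul_mem (hσ.mem e N) hy) _ hy'
  have hw : ∀ ε l R, Word τ C₁ ρ v ε l R → R ∈ V ε l := by
    intro ε l R hR
    induction hR with
    | one ε => exact m1 (.one ε)
    | @cons ε ε' l x R hx hk _ ih =>
      obtain ⟨c, hc, h1, h2⟩ := sp x hx
      have hkc : Ok τ ρ ε c ε' := hk.imp_right fun hk => by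
        have := sub_mem hk (Cen_anti τ (by rintro _ ⟨N, rfl⟩; exact hρ ε N) h2)
        rwa [sub_sub_cancel] at this
      have e : v ε * x * R = v ε * c * R * 1 + v ε * (x - c) * R := by noncomm_ring
      rw [e]
      refine add_mem (sandwich_closure (hV ε l) ?_ ih) (sandwich_closure (hV ε l) ?_ h1)
      · rintro _ (hR | ⟨l₀, R₀, y, e, e', Ω, z, hR₀, hy, hΩ, hz, rfl⟩)
        · rw [mul_one]; exact m1 (.cons hc hkc hR)
        · exact m2 ⟨l₀, _, y, e, e', Ω, z, .cons hc hkc hR₀, hy, hΩ, hz, by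
            simp only [mul_assoc, mul_one]⟩
      · rintro _ ⟨e₁, e₂, W, y₁, y₂, hW, hy₁, hy₂, rfl⟩
        rw [← mul_one (_ * R)]
        refine sandwich_closure (hV ε l) ?_ ih
        rintro R' (hR | ⟨l₀, R₀, y, e, e', Ω, z, hR₀, hy, hΩ, hz, rfl⟩)
        · exact m2 ⟨ε, _, y₁, e₁, e₂, W, y₂ * R', .one ε, hy₁, hW.mono hD,
            mul_mem (hD hy₂) (hR.mem hD hv), by simp only [mul_assoc, mul_one]⟩
        · obtain ⟨j1, j2⟩ := junc e₂ e hR₀ hy₂ hy
          exact m2 ⟨ε, _, y₁, e₁, e', _, z, .one ε, hy₁, (hW.mono hD).append j1 j2 hΩ, hz,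
            by simp only [mul_assoc, mul_one]⟩
  have hcen : ∀ ε l, V ε l ≤ Cen τ C₁ := by
    intro ε l
    refine Submodule.topologicalClosure_minimal _ (Submodule.span_le.mpr ?_) (isClosed_Cen _ _)
    intro R hR x hx
    obtain ⟨c, hc, h1, -⟩ := sp x hx
    have eq1 : x * R = c * R + 1 * (x - c) * R := by noncomm_ring
    have k : 1 * (x - c) * R ∈ τ.ker := by
      refine sandwich_closure (ContinuousLinearMap.isClosed_ker τ) ?_ h1
      rintro _ ⟨e₁, e₂, W, y₁, y₂, hW, hy₁, hy₂, rfl⟩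
      change τ _ = 0
      rcases hR with hR | ⟨l₀, R₀, y, e, e', Ω, z, hR₀, hy, hΩ, hz, rfl⟩
      · simpa only [one_mul, mul_assoc] using
          hf _ _ _ (hW.mono hD) _ (hD hy₁) _ (mul_mem (hD hy₂) (hR.mem hD hv))
      · obtain ⟨j1, j2⟩ := junc e₂ e hR₀ hy₂ hy
        simpa only [one_mul, mul_assoc] using
          hf _ _ _ ((hW.mono hD).append j1 j2 hΩ) _ (hD hy₁) _ hz
    have k' : τ (1 * (x - c) * R) = 0 := k
    rw [eq1, map_add, k', add_zero]
    rcases hR with hR | ⟨l₀, R₀, y, e, e', Ω, z, hR₀, hy, hΩ, hz, rfl⟩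
    · simpa only [mul_one] using h _ _ _ hR _ hc _ (one_mem _)
    · simpa only [mul_assoc] using hf _ _ _ hΩ _ (junc e e hR₀ hc hy).1 _ hz
  intro ε l R hR x₀ h₀ x₁ h₁
  rw [hτ.comm, ← mul_assoc]
  exact hcen ε l (hw ε l R hR) _ (mul_mem h₁ h₀)

end free

/-- The letter and its adjoint. -/
def sgn (u : A) : Bool → A := fun a => cond a u (star u)

section alg
variable {Λ : Type*} (X : Set A) (u : Λ → A)

/-- The C⋆-algebra generated by the base and the letters in `T`. -/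
noncomputable def alg (T : Set Λ) : StarSubalgebra ℂ A :=
  (StarAlgebra.adjoin ℂ (X ∪ u '' T)).topologicalClosure

instance isClosed_alg (T : Set Λ) : IsClosed (alg X u T : Set A) :=
  StarSubalgebra.isClosed_topologicalClosure _

variable {X u}

lemma alg_mono {S T : Set Λ} (h : S ⊆ T) : alg X u S ≤ alg X u T :=
  StarSubalgebra.topologicalClosure_mono
    (StarAlgebra.adjoin_mono (union_subset_union_right _ (image_mono h)))

lemma gen_mem_alg {T : Set Λ} {x : A} (h : x ∈ X ∪ u '' T) : x ∈ alg X u T :=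
  StarSubalgebra.le_topologicalClosure _ (StarAlgebra.subset_adjoin ℂ _ h)

lemma sgn_mem_alg {T : Set Λ} {α : Λ} (h : α ∈ T) (a : Bool) : sgn (u α) a ∈ alg X u T := by
  have : u α ∈ alg X u T := gen_mem_alg (.inr ⟨α, h, rfl⟩)
  cases a
  · exact star_mem this
  · exact this

lemma gen_insert (T : Set Λ) (α : Λ) : Gen (alg X u T) (sgn (u α)) (alg X u (insert α T)) where
  le := alg_mono (subset_insert _ _)
  mem := sgn_mem_alg (mem_insert _ _)
  ind := fun V hV h1 hB hv x hx => by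
    refine closure_adjoin_subset _ V hV h1 (fun g hg w hw => ?_) hx
    have : g ∈ alg X u T ∨ g = u α := by
      rcases hg with hg | ⟨β, rfl | hβ, rfl⟩
      · exact .inl (gen_mem_alg (.inl hg))
      · exact .inr rfl
      · exact .inl (gen_mem_alg (.inr ⟨β, hβ, rfl⟩))
    rcases this with hg | rfl
    · exact ⟨hB _ hg w hw, hB _ (star_mem hg) w hw⟩
    · exact ⟨hv true w hw, hv false w hw⟩

lemma alg_subset_closure (𝓕 : Set (Set Λ)) (hdir : DirectedOn (· ⊆ ·) 𝓕) (hne : 𝓕.Nonempty)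
    {T : Set Λ} (hT : T ⊆ ⋃₀ 𝓕) {x : A} (hx : x ∈ alg X u T) :
    x ∈ closure (⋃ S ∈ 𝓕, (alg X u S : Set A)) := by
  refine closure_mono ?_ hx
  intro x hx
  rw [mem_iUnion₂]
  induction hx using StarAlgebra.adjoin_induction with
  | mem x hx =>
    rcases hx with hx | ⟨β, hβ, rfl⟩
    · obtain ⟨S, hS⟩ := hne
      exact ⟨S, hS, gen_mem_alg (.inl hx)⟩
    · obtain ⟨S, hS, h⟩ := hT hβ
      exact ⟨S, hS, gen_mem_alg (.inr ⟨β, h, rfl⟩)⟩
  | algebraMap r =>
    obtain ⟨S, hS⟩ := hne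
    exact ⟨S, hS, algebraMap_mem _ r⟩
  | add x y _ _ hx hy =>
    obtain ⟨S, hS, hx⟩ := hx
    obtain ⟨S', hS', hy⟩ := hy
    obtain ⟨E, hE, h1, h2⟩ := hdir S hS S' hS'
    exact ⟨E, hE, add_mem (alg_mono h1 hx) (alg_mono h2 hy)⟩
  | mul x y _ _ hx hy =>
    obtain ⟨S, hS, hx⟩ := hx
    obtain ⟨S', hS', hy⟩ := hy
    obtain ⟨E, hE, h1, h2⟩ := hdir S hS S' hS'
    exact ⟨E, hE, mul_mem (alg_mono h1 hx) (alg_mono h2 hy)⟩
  | star x _ hx =>
    obtain ⟨S, hS, hx⟩ := hx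
    exact ⟨S, hS, star_mem hx⟩

/-- Every element is supported on countably many letters. -/
lemma exists_countable_support {T : Set Λ} {x : A} (hx : x ∈ alg X u T) :
    ∃ S : Set Λ, S.Countable ∧ x ∈ alg X u S := by
  have h1 := alg_subset_closure {S | S.Countable} (fun S hS S' hS' =>
    ⟨S ∪ S', Countable.union hS hS', subset_union_left, subset_union_right⟩) ⟨∅, countable_empty⟩
    (fun β _ => ⟨{β}, countable_singleton β, rfl⟩) hx
  obtain ⟨y, hy, hlim⟩ := mem_closure_iff_seq_limit.mp h1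
  choose S hS hyS using fun n => mem_iUnion₂.mp (hy n)
  exact ⟨⋃ n, S n, countable_iUnion hS, (isClosed_alg X u _).mem_of_tendsto hlim
    (Eventually.of_forall fun n => alg_mono (subset_iUnion S n) (hyS n))⟩

variable [LinearOrder Λ]

/-- The directed family approximating `S ∪ (T ∩ J)`. -/
def fam (S T J : Set Λ) : Set (Set Λ) := insert S {E | ∃ δ ∈ J, E = S ∪ (T ∩ Iic δ)}

lemma fam_directed (S T J : Set Λ) : DirectedOn (· ⊆ ·) (fam S T J) := by
  rintro E (hE | ⟨δ, hδ, rfl⟩) E' (hE' | ⟨δ', hδ', rfl⟩)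
  · exact ⟨S, .inl rfl, hE.le, hE'.le⟩
  · exact ⟨_, .inr ⟨δ', hδ', rfl⟩, hE.le.trans subset_union_left, subset_rfl⟩
  · exact ⟨_, .inr ⟨δ, hδ, rfl⟩, subset_rfl, hE'.le.trans subset_union_left⟩
  · rcases le_total δ δ' with h | h
    · exact ⟨_, .inr ⟨δ', hδ', rfl⟩, union_subset_union_right _
        (inter_subset_inter_right _ (Iic_subset_Iic.mpr h)), subset_rfl⟩
    · exact ⟨_, .inr ⟨δ, hδ, rfl⟩, subset_rfl, union_subset_union_right _
        (inter_subset_inter_right _ (Iic_subset_Iic.mpr h))⟩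

lemma mem_closure_fam (S T J : Set Λ) {x : A} (hx : x ∈ alg X u (S ∪ (T ∩ J))) :
    x ∈ closure (⋃ E ∈ fam S T J, (alg X u E : Set A)) := by
  refine alg_subset_closure _ (fam_directed S T J) ⟨S, .inl rfl⟩ ?_ hx
  rintro β (hβ | hβ)
  · exact ⟨S, .inl rfl, hβ⟩
  · exact ⟨_, .inr ⟨β, hβ.2, rfl⟩, .inr ⟨hβ.1, le_refl β⟩⟩

lemma ext_lim {τ : A →L[ℂ] ℂ} (hτ : IsTrace τ) (S T J : Set Λ)
    (h : ∀ δ ∈ J, Ext τ (alg X u S) (alg X u (S ∪ (T ∩ Iic δ)))) :
    Ext τ (alg X u S) (alg X u (S ∪ (T ∩ J))) := by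
  intro x hx
  refine closure_minimal ?_ (hτ.isClosed_Good _) (mem_closure_fam S T J hx)
  refine iUnion₂_subset ?_
  rintro E (rfl | ⟨δ, hδ, rfl⟩)
  · exact Ext.of_le le_rfl
  · exact h δ hδ

lemma lower_ind [WellFoundedLT Λ] (P : Set Λ → Prop) (hstep : ∀ δ, P (Iio δ) → P (Iic δ))
    (hlim : ∀ J, IsLowerSet J → (∀ δ ∈ J, P (Iic δ)) → P J) (J : Set Λ) (hJ : IsLowerSet J) :
    P J := by
  have : ∀ δ, P (Iic δ) := fun δ => by
    induction δ using WellFoundedLT.induction with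
    | ind δ ih => exact hstep δ (hlim _ (isLowerSet_Iio δ) ih)
  exact hlim J hJ (fun δ _ => this δ)

end alg

/-- Valid data for an HNN step. -/
structure Valid (τ : A →L[ℂ] ℂ) (B : StarSubalgebra ℂ A) (ρ : Bool → ℕ → A) : Prop where
  nests : Nests B ρ
  pk : Pk B ρ
  inq : Inq B ρ
  small : ∀ a, Tendsto (fun N => nrm τ (ρ a N)) atTop (𝓝 0)
  eq : ∀ N, τ (ρ true N) = τ (ρ false N)

/-- A transfinite system of HNN extensions. -/
structure Sys {Λ : Type*} [LinearOrder Λ] (τ : A →L[ℂ] ℂ) (X : Set A) (u : Λ → A)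
    (ρ : Λ → Bool → ℕ → A) : Prop where
  tr : IsTrace τ
  small : Small τ (alg X u ∅)
  valid : ∀ α, Valid τ (alg X u (Iio α)) (ρ α)
  letter : ∀ α, Letter (ρ α) (sgn (u α))
  free : ∀ α, Free τ (alg X u (Iio α)) (ρ α) (sgn (u α))

/-- A set of letters containing the supports of the data of its members. -/
def Clo {Λ : Type*} [LinearOrder Λ] (X : Set A) (u : Λ → A) (ρ : Λ → Bool → ℕ → A) (T : Set Λ) :
    Prop := ∀ α ∈ T, ∀ a N, ρ α a N ∈ alg X u (T ∩ Iio α)

namespace Sys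

variable {Λ : Type*} [LinearOrder Λ] [WellFoundedLT Λ] {τ : A →L[ℂ] ℂ} {X : Set A} {u : Λ → A}
  {ρ : Λ → Bool → ℕ → A} (h : Sys τ X u ρ)
include h

omit [WellFoundedLT Λ] in
lemma clo_union {S J : Set Λ} (hS : Clo X u ρ S) (hJ : IsLowerSet J) : Clo X u ρ (S ∪ J) := by
  rintro α (hα | hα) a N
  · exact alg_mono (inter_subset_inter_left _ subset_union_left) (hS α hα a N)
  · exact alg_mono (T := (S ∪ J) ∩ Iio α) (fun β hβ => ⟨.inr (hJ (le_of_lt hβ) hα), hβ⟩)
      ((h.valid α).nests.mem a N)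

omit [WellFoundedLT Λ] in
lemma nests_clo {T : Set Λ} (hT : Clo X u ρ T) {δ : Λ} (hδ : δ ∈ T) :
    Nests (alg X u (T ∩ Iio δ)) (ρ δ) :=
  ⟨(h.valid δ).nests.nest, (h.valid δ).nests.zero, hT δ hδ⟩

/-- Unique extension from an initial segment of a closed set. -/
theorem ext_initial {T I : Set Λ} (hT : Clo X u ρ T) (hI : IsLowerSet I) :
    Ext τ (alg X u (T ∩ I)) (alg X u T) := by
  have := lower_ind (fun J => Ext τ (alg X u (T ∩ I)) (alg X u (T ∩ I ∪ (T ∩ J)))) (fun δ ih => ?_)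
    (fun J _ hJ => ext_lim h.tr _ _ _ hJ) univ isLowerSet_univ
  · exact this.mono (alg_mono fun β hβ => .inr ⟨hβ, trivial⟩)
  by_cases hδ : δ ∈ T ∧ δ ∉ I
  · have e1 : T ∩ I ∪ (T ∩ Iio δ) = T ∩ Iio δ := union_eq_right.mpr fun β hβ =>
      ⟨hβ.1, lt_of_not_ge fun h' => hδ.2 (hI h' hβ.2)⟩
    rw [e1] at ih
    have hle : alg X u (T ∩ Iio δ) ≤ alg X u (Iio δ) := alg_mono inter_subset_right
    have st : Step τ (alg X u (T ∩ Iio δ)) (ρ δ) (sgn (u δ)) (alg X u (insert δ (T ∩ Iio δ))) :=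
      ⟨h.tr, h.nests_clo hT hδ.1, (h.valid δ).pk.mono hle, h.letter δ, (h.free δ).mono hle,
        gen_insert _ _, isClosed_alg _ _ _⟩
    refine (ih.trans (alg_mono (e1 ▸ subset_union_left)) (st.ext_of_inq ((h.valid δ).inq.mono hle)
      (h.valid δ).small (h.small.mono (alg_mono (empty_subset _))))).mono (alg_mono ?_)
    rintro β (hβ | ⟨h1, h2⟩)
    · exact .inr (e1 ▸ .inl hβ)
    · rcases (mem_Iic.mp h2).eq_or_lt with rfl | h2
      · exact .inl rfl
      · exact .inr ⟨h1, h2⟩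
  · refine ih.mono (alg_mono ?_)
    rintro β (hβ | ⟨h1, h2⟩)
    · exact .inl hβ
    · rcases (mem_Iic.mp h2).eq_or_lt with rfl | h2
      · exact .inl ⟨h1, by tauto⟩
      · exact .inr ⟨h1, h2⟩

lemma ext_Iio {S : Set Λ} (hS : Clo X u ρ S) {β : Λ} (hβ : Iio β ⊆ S) :
    Ext τ (alg X u (Iio β)) (alg X u S) := by
  have := h.ext_initial hS (isLowerSet_Iio β)
  rwa [inter_eq_right.mpr hβ] at this

/-- A letter is free over any closed set containing its predecessors but not itself. -/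
theorem free_clo {S : Set Λ} (hS : Clo X u ρ S) {β : Λ} (hβ : Iio β ⊆ S) (hβS : β ∉ S) :
    Free τ (alg X u S) (ρ β) (sgn (u β)) := by
  have := lower_ind (fun J => Free τ (alg X u (Iio β ∪ (S ∩ J))) (ρ β) (sgn (u β)))
    (fun δ ih => ?_) (fun J hJ' hJ => ?_) univ isLowerSet_univ
  · exact this.mono (alg_mono fun β hβ => .inr ⟨hβ, trivial⟩)
  · by_cases hδ : δ ∈ S ∧ β < δ
    · have e1 : Iio β ∪ (S ∩ Iio δ) = S ∩ Iio δ := union_eq_right.mpr fun γ hγ =>
        ⟨hβ hγ, lt_trans hγ hδ.2⟩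
      rw [e1] at ih
      have hle : alg X u (S ∩ Iio δ) ≤ alg X u (Iio δ) := alg_mono inter_subset_right
      refine (Free.succ h.tr (h.nests_clo hS hδ.1) ((h.valid δ).pk.mono hle) (h.letter δ)
        (h.free δ) (gen_insert _ _) hle (fun a N => alg_mono (e1 ▸ subset_union_left)
          ((h.valid β).nests.mem a N)) (sgn_mem_alg hδ.2) ih).mono (alg_mono ?_)
      rintro γ (hγ | ⟨h1, h2⟩)
      · exact .inr (e1 ▸ .inl hγ)
      · rcases (mem_Iic.mp h2).eq_or_lt with rfl | h2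
        · exact .inl rfl
        · exact .inr ⟨h1, h2⟩
    · refine ih.mono (alg_mono ?_)
      rintro γ (hγ | ⟨h1, h2⟩)
      · exact .inl hγ
      · rcases (mem_Iic.mp h2).eq_or_lt with rfl | h2
        · rcases lt_trichotomy γ β with h3 | rfl | h3
          · exact .inl h3
          · exact (hβS h1).elim
          · exact (hδ ⟨h1, h3⟩).elim
        · exact .inr ⟨h1, h2⟩
  · refine Free.of_directed h.tr (h.valid β).nests.mem (alg X u '' fam (Iio β) S J) ?_
      ⟨_, _, .inl rfl, rfl⟩ ?_ (fun x hx => ?_) (fun x hx => ?_) ?_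
    · rintro _ ⟨E, hE, rfl⟩ _ ⟨E', hE', rfl⟩
      obtain ⟨F, hF, h1, h2⟩ := fam_directed _ _ _ E hE E' hE'
      exact ⟨_, ⟨F, hF, rfl⟩, alg_mono h1, alg_mono h2⟩
    · rintro _ ⟨E, rfl | ⟨δ, hδ, rfl⟩, rfl⟩
      · exact ⟨le_rfl, alg_mono subset_union_left⟩
      · exact ⟨alg_mono subset_union_left, alg_mono (union_subset_union_right _
          (inter_subset_inter_right _ fun γ hγ => hJ' hγ hδ))⟩
    · rw [biUnion_image]
      exact mem_closure_fam _ _ _ hx
    · obtain ⟨b, hb, h1⟩ := h.ext_Iio hS hβ (alg_mono (union_subset hβ inter_subset_left) hx)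
      exact ⟨b, hb, h1.1⟩
    · rintro _ ⟨E, rfl | ⟨δ, hδ, rfl⟩, rfl⟩
      · exact h.free β
      · exact hJ δ hδ

/-- Unique extension of pure states from any closed set of letters. -/
theorem ext_univ {S : Set Λ} (hS : Clo X u ρ S) : Ext τ (alg X u S) (alg X u univ) := by
  have := lower_ind (fun J => Ext τ (alg X u S) (alg X u (S ∪ (univ ∩ J)))) (fun δ ih => ?_)
    (fun J _ hJ => ext_lim h.tr _ _ _ hJ) univ isLowerSet_univ
  · exact this.mono (alg_mono fun β _ => .inr ⟨trivial, trivial⟩)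
  rw [univ_inter] at ih ⊢
  by_cases hδ : δ ∈ S
  · refine ih.mono (alg_mono ?_)
    rintro β (hβ | h2)
    · exact .inl hβ
    · rcases (mem_Iic.mp h2).eq_or_lt with rfl | h2
      · exact .inl hδ
      · exact .inr h2
  · have hS' := h.clo_union hS (isLowerSet_Iio δ)
    have hS'' := h.clo_union hS (isLowerSet_Iic δ)
    have e1 : insert δ (S ∪ Iio δ) = S ∪ Iic δ := by
      rw [← union_insert, Iio_insert]
    have hle : alg X u (Iio δ) ≤ alg X u (S ∪ Iio δ) := alg_mono subset_union_right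
    have hfree := h.free_clo hS' subset_union_right (by simp [hδ])
    have st : Step τ (alg X u (S ∪ Iio δ)) (ρ δ) (sgn (u δ)) (alg X u (insert δ (S ∪ Iio δ))) :=
      ⟨h.tr, (h.valid δ).nests.mono hle,
        (h.valid δ).pk.of_ext (h.valid δ).nests (h.ext_Iio hS' subset_union_right),
        h.letter δ, hfree, gen_insert _ _, isClosed_alg _ _ _⟩
    rw [e1] at st
    refine ih.trans (alg_mono subset_union_left)
      (st.ext (h.small.mono (alg_mono (empty_subset _))) fun a χ hχ h1 => ?_)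
    rintro _ ⟨ε, l, R, x₀, x₁, hR, hx₀, hx₁, rfl⟩
    refine (h.ext_Iio hS'' (Iio_subset_Iic_self.trans subset_union_right)).eq_zero h.tr
      (mul_mem (mul_mem (st.gen.le hx₀) (hR.mem st.gen.le st.gen.mem)) (st.gen.le hx₁))
      (fun y hy => ?_) (peak_bpure (h.valid δ).nests (h.valid δ).pk hχ h1)
    simpa only [mul_assoc] using hfree _ _ _ hR _ (mul_mem (hle hy) hx₀) _ hx₁

end Sys

end Crest.Agent.Lib.HNN
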