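import Crest.Agent.Lib.CStarPure.Trace

/-! Reduced words for an HNN-type extension over two nests of projections. -/

set_option autoImplicit false

open scoped ComplexOrder InnerProductSpace
open Filter Topology

namespace Crest.Agent.Lib.HNN

open Crest.Agent.Lib.CStarPure

variable {A : Type*} [CStarAlgebra A]

/-- A closed subspace containing `1` and stable under left multiplication by the generators and
their adjoints contains the generated C⋆-algebra. -/
theorem closure_adjoin_subset (X : Set A) (V : Submodule ℂ A) (hV : IsClosed (V : Set A))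
    (h1 : (1 : A) ∈ V) (hX : ∀ g ∈ X, ∀ w ∈ V, g * w ∈ V ∧ star g * w ∈ V) {x : A}
    (hx : x ∈ (StarAlgebra.adjoin ℂ X).topologicalClosure) : x ∈ V := by
  have key : ∀ x ∈ StarAlgebra.adjoin ℂ X, ∀ w ∈ V, x * w ∈ V ∧ star x * w ∈ V := by
    intro x hx
    induction hx using StarAlgebra.adjoin_induction with
    | mem x hx => exact hX x hx
    | algebraMap r =>
      intro w hw
      simp only [Algebra.algebraMap_eq_smul_one, star_smul, star_one, smul_mul_assoc, one_mul]
      exact ⟨V.smul_mem _ hw, V.smul_mem _ hw⟩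
    | add x y _ _ hx hy =>
      intro w hw
      simp only [star_add, add_mul]
      exact ⟨add_mem (hx w hw).1 (hy w hw).1, add_mem (hx w hw).2 (hy w hw).2⟩
    | mul x y _ _ hx hy =>
      intro w hw
      simp only [star_mul, mul_assoc]
      exact ⟨(hx _ (hy w hw).1).1, (hy _ (hx w hw).2).2⟩
    | star x _ hx =>
      intro w hw
      rw [star_star]
      exact (hx w hw).symm
  have : (StarAlgebra.adjoin ℂ X : Set A) ⊆ V := fun x hx => by simpa using (key x hx 1 h1).1
  exact closure_minimal this hV hx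

/-- `C` is generated by `B` and the letters `v a`. -/
structure Gen (B : StarSubalgebra ℂ A) (v : Bool → A) (C : StarSubalgebra ℂ A) : Prop where
  le : B ≤ C
  mem : ∀ a, v a ∈ C
  ind : ∀ V : Submodule ℂ A, IsClosed (V : Set A) → (1 : A) ∈ V → (∀ b ∈ B, ∀ w ∈ V, b * w ∈ V) →
    (∀ a, ∀ w ∈ V, v a * w ∈ V) → ∀ x ∈ C, x ∈ V

/-- The junction condition. -/
def Ok (τ : A →L[ℂ] ℂ) (ρ : Bool → ℕ → A) (l : Bool) (x : A) (ε : Bool) : Prop :=
  l = ε ∨ x ∈ Cen τ (Set.range (ρ l))

/-- Reduced words with first letter `v ε` and last letter `v l`. -/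
inductive Word (τ : A →L[ℂ] ℂ) (B : StarSubalgebra ℂ A) (ρ : Bool → ℕ → A) (v : Bool → A) :
    Bool → Bool → A → Prop
  | one (ε : Bool) : Word τ B ρ v ε ε (v ε)
  | cons {ε ε' l : Bool} {x R : A} : x ∈ B → Ok τ ρ ε x ε' → Word τ B ρ v ε' l R →
      Word τ B ρ v ε l (v ε * x * R)

/-- Freeness: all reduced words, multiplied by elements of `B`, have trace zero. -/
def Free (τ : A →L[ℂ] ℂ) (B : StarSubalgebra ℂ A) (ρ : Bool → ℕ → A) (v : Bool → A) : Prop :=
  ∀ ε l R, Word τ B ρ v ε l R → ∀ x₀ ∈ B, ∀ x₁ ∈ B, τ (x₀ * R * x₁) = 0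

/-- Both nests are peak nests on `B`. -/
def Pk (B : StarSubalgebra ℂ A) (ρ : Bool → ℕ → A) : Prop :=
  ∀ a, ∀ x ∈ B, ∃ c : ℂ, Tendsto (fun N => ‖ρ a N * (x - c • 1) * ρ a N‖) atTop (𝓝 0)

/-- The two peak states are inequivalent on `B`. -/
def Inq (B : StarSubalgebra ℂ A) (ρ : Bool → ℕ → A) : Prop :=
  ∀ a, ∀ x ∈ B, Tendsto (fun N => ‖ρ a N * x * ρ (!a) N‖) atTop (𝓝 0)

/-- A unitary letter intertwining the two nests. -/
structure Letter (ρ : Bool → ℕ → A) (v : Bool → A) : Prop where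
  star_eq : ∀ a, star (v a) = v (!a)
  mul_not : ∀ a, v a * v (!a) = 1
  inter : ∀ a N, v a * ρ a N = ρ (!a) N * v a

/-- Two nests in `B` starting at `1`. -/
structure Nests (B : StarSubalgebra ℂ A) (ρ : Bool → ℕ → A) : Prop where
  nest : ∀ a, Nest (ρ a)
  zero : ∀ a, ρ a 0 = 1
  mem : ∀ a N, ρ a N ∈ B

/-- A state that is tracial on `B`. -/
structure TrOn (τ : A →L[ℂ] ℂ) (B : StarSubalgebra ℂ A) : Prop extends IsState τ where
  comm : ∀ x ∈ B, ∀ y ∈ B, τ (x * y) = τ (y * x)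

lemma _root_.Crest.Agent.Lib.CStarPure.IsTrace.trOn {τ : A →L[ℂ] ℂ} (hτ : IsTrace τ)
    (B : StarSubalgebra ℂ A) : TrOn τ B := ⟨hτ.toIsState, fun x _ y _ => hτ.comm x y⟩

variable {τ : A →L[ℂ] ℂ} {B C : StarSubalgebra ℂ A} {ρ : Bool → ℕ → A} {v : Bool → A}

lemma Pk.mono (h : Pk C ρ) (hBC : B ≤ C) : Pk B ρ := fun a x hx => h a x (hBC hx)
lemma Inq.mono (h : Inq C ρ) (hBC : B ≤ C) : Inq B ρ := fun a x hx => h a x (hBC hx)
lemma Nests.mono (h : Nests B ρ) (hBC : B ≤ C) : Nests C ρ :=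
  ⟨h.nest, h.zero, fun a N => hBC (h.mem a N)⟩

lemma Letter.norm_le (h : Letter ρ v) (a : Bool) : ‖v a‖ ≤ 1 := by
  have h1 : ‖v a‖ * ‖v a‖ ≤ 1 := by
    rw [← CStarRing.norm_self_mul_star, h.star_eq, h.mul_not]
    exact norm_one_le_one
  nlinarith [norm_nonneg (v a)]

namespace Word

lemma mono (hBC : B ≤ C) {ε l : Bool} {R : A} (h : Word τ B ρ v ε l R) : Word τ C ρ v ε l R := by
  induction h with
  | one ε => exact .one ε
  | cons hx hok _ ih => exact .cons (hBC hx) hok ih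

lemma mem (hBC : B ≤ C) (hv : ∀ a, v a ∈ C) {ε l : Bool} {R : A} (h : Word τ B ρ v ε l R) :
    R ∈ C := by
  induction h with
  | one ε => exact hv ε
  | cons hx _ _ ih => exact mul_mem (mul_mem (hv _) (hBC hx)) ih

lemma append {ε l ε' l' : Bool} {R R' x : A} (h : Word τ B ρ v ε l R) (hx : x ∈ B)
    (hok : Ok τ ρ l x ε') (h' : Word τ B ρ v ε' l' R') : Word τ B ρ v ε l' (R * x * R') := by
  induction h with
  | one ε => exact .cons hx hok h'
  | cons hy hok' _ ih =>
    have := Word.cons hy hok' (ih hok)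
    simpa only [mul_assoc] using this

lemma strip_left {ε l : Bool} {R : A} (h : Word τ B ρ v ε l R) :
    (l = ε ∧ R = v ε) ∨
      ∃ ε' x R', x ∈ B ∧ Ok τ ρ ε x ε' ∧ Word τ B ρ v ε' l R' ∧ R = v ε * x * R' := by
  cases h with
  | one => exact .inl ⟨rfl, rfl⟩
  | cons hx hok hR => exact .inr ⟨_, _, _, hx, hok, hR, rfl⟩

lemma strip_right {ε l : Bool} {R : A} (h : Word τ B ρ v ε l R) :
    (ε = l ∧ R = v l) ∨
      ∃ l' x R', x ∈ B ∧ Ok τ ρ l' x l ∧ Word τ B ρ v ε l' R' ∧ R = R' * x * v l := by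
  induction h with
  | one ε => exact .inl ⟨rfl, rfl⟩
  | @cons ε ε' l x R hx hok _ ih =>
    rcases ih with ⟨rfl, rfl⟩ | ⟨l', y, R', hy, hok', hR', rfl⟩
    · exact .inr ⟨ε, x, v ε, hx, hok, .one ε, rfl⟩
    · exact .inr ⟨l', y, v ε * x * R', hy, hok', .cons hx hok hR', by simp only [mul_assoc]⟩

end Word

lemma Free.mono (h : Free τ C ρ v) (hBC : B ≤ C) : Free τ B ρ v :=
  fun ε l R hR x₀ h₀ x₁ h₁ => h ε l R (hR.mono hBC) x₀ (hBC h₀) x₁ (hBC h₁)

lemma cen_star (hτ : TrOn τ B) (hρ : Nests B ρ) {a : Bool} {x : A} (hx : x ∈ B)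
    (h : x ∈ Cen τ (Set.range (ρ a))) : star x ∈ Cen τ (Set.range (ρ a)) := by
  rintro _ ⟨N, rfl⟩
  have := hτ.map_star (x * ρ a N)
  rw [star_mul, ((hρ.nest a).proj N).isSelfAdjoint.star_eq, hτ.comm x hx _ (hρ.mem a N),
    h _ ⟨N, rfl⟩, star_zero] at this
  exact this

lemma cen_mul (hρ : Nests B ρ) {a : Bool} {x : A} (N : ℕ)
    (h : x ∈ Cen τ (Set.range (ρ a))) : ρ a N * x ∈ Cen τ (Set.range (ρ a)) := by
  rintro _ ⟨M, rfl⟩
  rw [← mul_assoc]
  rcases le_total N M with h1 | h1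
  · rw [(hρ.nest a).mul_of_ge h1]; exact h _ ⟨M, rfl⟩
  · rw [(hρ.nest a).mul_of_le h1]; exact h _ ⟨N, rfl⟩

lemma Word.star (hτ : TrOn τ B) (hρ : Nests B ρ) (hv : Letter ρ v) {ε l : Bool} {R : A}
    (h : Word τ B ρ v ε l R) : Word τ B ρ v (!l) (!ε) (star R) := by
  induction h with
  | one ε => rw [hv.star_eq]; exact .one _
  | @cons ε ε' l x R hx hok _ ih =>
    rw [star_mul, star_mul, hv.star_eq, ← mul_assoc]
    refine ih.append (star_mem hx) ?_ (.one _)
    by_cases h : ε = ε'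
    · exact .inl (by rw [h])
    · have h1 : (!ε') = ε := by cases ε <;> cases ε' <;> simp_all
      rw [h1]
      exact .inr (cen_star hτ hρ hx (hok.resolve_left h))

/-- Subtracting the corner and the diagonal part leaves a centred element. -/
theorem decomp (hτ : TrOn τ B) (hρ : Nests B ρ) (a : Bool) (N : ℕ) :
    ∃ K : ℝ, 0 ≤ K ∧ ∀ h ∈ B, ∃ d ∈ Submodule.span ℂ (Set.range (ρ a)), ‖d‖ ≤ K * nrm τ h ∧
      h - ρ a N * h * ρ a N - d ∈ Cen τ (Set.range (ρ a)) := by
  have hn := hρ.nest a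
  set r := ρ a with hr
  let p : ℕ → A := fun n => r n - r (n + 1)
  have hp : ∀ n, IsStarProjection (p n) := fun n =>
    ((hn.proj (n + 1)).sub_of_mul_eq_left (hn.proj n) (hn.mul_of_ge (Nat.le_succ n)))
  have hpB : ∀ n, p n ∈ B := fun n => sub_mem (hρ.mem a _) (hρ.mem a _)
  have h1 : ∀ {n M}, n < M → r M * p n = 0 := fun {n M} h => by
    simp only [p, mul_sub]
    rw [hn.mul_of_ge h.le, hn.mul_of_ge h, sub_self]
  have h2 : ∀ {n M}, n < M → p n * r M = 0 := fun {n M} h => by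
    simp only [p, sub_mul]
    rw [hn.mul_of_le h.le, hn.mul_of_le h, sub_self]
  have h3 : ∀ {m n}, m ≠ n → p m * p n = 0 := fun {m n} h => by
    rcases lt_or_gt_of_ne h with h | h
    · change p m * (r n - r (n + 1)) = 0
      rw [mul_sub, h2 h, h2 (by omega), sub_self]
    · change (r m - r (m + 1)) * p n = 0
      rw [sub_mul, h1 h, h1 (by omega), sub_self]
  refine ⟨∑ n ∈ Finset.range N, ‖τ (p n)‖⁻¹, by positivity, fun h hh => ?_⟩
  let lam : ℕ → ℂ := fun n => τ (p n * h) / τ (p n)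
  have hcs : ∀ n, ‖τ (p n * h)‖ ≤ nrm τ (p n) * nrm τ h := fun n => by
    have := hτ.norm_star_mul_le (p n) h
    rwa [(hp n).isSelfAdjoint.star_eq] at this
  refine ⟨∑ n ∈ Finset.range N, lam n • p n, Submodule.sum_mem _ fun n _ =>
    Submodule.smul_mem _ _ (sub_mem (Submodule.subset_span ⟨_, rfl⟩)
      (Submodule.subset_span ⟨_, rfl⟩)), ?_, ?_⟩
  · rw [Finset.sum_mul]
    refine norm_sum_le_of_le _ (fun n _ => ?_)
    rw [norm_smul, norm_div, div_eq_inv_mul, mul_assoc]
    gcongr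
    have a1 := (hp n).norm_le
    have a2 : nrm τ (p n) ≤ 1 := (hτ.nrm_le_norm _).trans a1
    have a3 := nrm_nonneg τ h
    have a4 : ‖τ (p n * h)‖ ≤ nrm τ h := (hcs n).trans (by nlinarith)
    nlinarith [norm_nonneg (τ (p n * h))]
  · set y := h - r N * h * r N - ∑ n ∈ Finset.range N, lam n • p n with hy
    have k1 : ∀ M, N ≤ M → τ (r M * y) = 0 := by
      intro M hM
      have e1 : r M * ∑ n ∈ Finset.range N, lam n • p n = 0 := by
        rw [Finset.mul_sum]
        refine Finset.sum_eq_zero fun n hn' => ?_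
        rw [mul_smul_comm, h1 (lt_of_lt_of_le (Finset.mem_range.mp hn') hM), smul_zero]
      have e2 : τ (r M * (r N * h * r N)) = τ (r M * h) := by
        rw [← mul_assoc, hτ.comm _ (mul_mem (hρ.mem a _) (mul_mem (hρ.mem a _) hh)) _ (hρ.mem a _),
          ← mul_assoc, ← mul_assoc, hn.mul_of_le hM, hn.mul_of_ge hM]
      rw [hy, mul_sub, mul_sub, e1, map_sub, map_sub, e2]
      simp
    have k2 : ∀ m, m < N → τ (p m * y) = 0 := by
      intro m hm
      have e1 : p m * ∑ n ∈ Finset.range N, lam n • p n = lam m • p m := by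
        rw [Finset.mul_sum, Finset.sum_eq_single m]
        · rw [mul_smul_comm, (hp m).isIdempotentElem.eq]
        · intro n _ hnm
          rw [mul_smul_comm, h3 (Ne.symm hnm), smul_zero]
        · intro h; exact (h (Finset.mem_range.mpr hm)).elim
      rw [hy, mul_sub, mul_sub, e1, ← mul_assoc, ← mul_assoc, h2 hm, map_sub, map_smul]
      simp only [zero_mul, sub_zero, smul_eq_mul, lam]
      by_cases h0 : τ (p m) = 0
      · have := hcs m
        rw [hτ.nrm_proj (hp m), h0] at this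
        simpa [h0] using this
      · rw [div_mul_cancel₀ _ h0, sub_self]
    have k3 : ∀ k M, M + k = N → τ (r M * y) = 0 := by
      intro k
      induction k with
      | zero => intro M hM; exact k1 M (by omega)
      | succ k ih =>
        intro M hM
        have : r M = p M + r (M + 1) := by simp [p]
        rw [this, add_mul, map_add, k2 M (by omega), ih (M + 1) (by omega), add_zero]
    rintro _ ⟨M, rfl⟩
    rcases le_total N M with hM | hM
    · exact k1 M hM
    · exact k3 (N - M) M (by omega)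

lemma span_le (hρ : Nests B ρ) (a : Bool) {d : A} (hd : d ∈ Submodule.span ℂ (Set.range (ρ a))) :
    d ∈ B := by
  have : Submodule.span ℂ (Set.range (ρ a)) ≤ B.toSubalgebra.toSubmodule :=
    Submodule.span_le.mpr (by rintro _ ⟨N, rfl⟩; exact hρ.mem a N)
  exact this hd

/-- Induction principle: `B` is the closure of the span of the nest and its centred elements. -/
theorem split_ind (hτ : TrOn τ B) (hρ : Nests B ρ) (hpk : Pk B ρ) (a : Bool) (V : Submodule ℂ A)
    (hV : IsClosed (V : Set A)) (h1 : ∀ N, ρ a N ∈ V)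
    (h2 : ∀ y ∈ B, y ∈ Cen τ (Set.range (ρ a)) → y ∈ V) {x : A} (hx : x ∈ B) : x ∈ V := by
  obtain ⟨c, hc⟩ := hpk a x hx
  have : Tendsto (fun N => x - ρ a N * (x - c • 1) * ρ a N) atTop (𝓝 (x - 0)) :=
    tendsto_const_nhds.sub (tendsto_zero_iff_norm_tendsto_zero.mpr hc)
  rw [sub_zero] at this
  refine hV.mem_of_tendsto this (Eventually.of_forall fun N => ?_)
  obtain ⟨K, -, hK⟩ := decomp hτ hρ a N
  obtain ⟨d, hd, -, hy⟩ := hK x hx
  have e : x - ρ a N * (x - c • 1) * ρ a N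
      = (x - ρ a N * x * ρ a N - d) + d + c • ρ a N := by
    rw [mul_sub, sub_mul, mul_smul_comm, mul_one, smul_mul_assoc,
      ((hρ.nest a).proj N).isIdempotentElem.eq]
    abel
  rw [e]
  refine add_mem (add_mem (h2 _ ?_ hy) ?_) (V.smul_mem _ (h1 N))
  · exact sub_mem (sub_mem hx (mul_mem (mul_mem (hρ.mem a N) hx) (hρ.mem a N))) (span_le hρ a hd)
  · exact (Submodule.span_le.mpr (by rintro _ ⟨N, rfl⟩; exact h1 N) : _ ≤ V) hd

/-- The closed subspace of `x` with `a * x * b ∈ V`. -/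
noncomputable def sandwich (V : Submodule ℂ A) (a b : A) : Submodule ℂ A :=
  V.comap (ContinuousLinearMap.mulLeftRight ℂ A a b : A →ₗ[ℂ] A)

lemma mem_sandwich {V : Submodule ℂ A} {a b x : A} : x ∈ sandwich V a b ↔ a * x * b ∈ V := Iff.rfl

lemma isClosed_sandwich {V : Submodule ℂ A} (hV : IsClosed (V : Set A)) (a b : A) :
    IsClosed (sandwich V a b : Set A) :=
  hV.preimage (ContinuousLinearMap.mulLeftRight ℂ A a b).continuous

lemma sandwich_closure {X : Set A} {V : Submodule ℂ A} (hV : IsClosed (V : Set A)) {a b : A}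
    (h : ∀ x ∈ X, a * x * b ∈ V) {x : A} (hx : x ∈ (Submodule.span ℂ X).topologicalClosure) :
    a * x * b ∈ V := by
  have : (Submodule.span ℂ X).topologicalClosure ≤ sandwich V a b :=
    Submodule.topologicalClosure_minimal _ (Submodule.span_le.mpr h) (isClosed_sandwich hV a b)
  exact this hx

/-- The elementary words `x R x'`. -/
def Elem (τ : A →L[ℂ] ℂ) (B : StarSubalgebra ℂ A) (ρ : Bool → ℕ → A) (v : Bool → A) : Set A :=
  {w | ∃ ε l R x x', Word τ B ρ v ε l R ∧ x ∈ B ∧ x' ∈ B ∧ w = x * R * x'}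

/-- The generated algebra is the closed span of `B` and the elementary words. -/
theorem spanning (hτ : TrOn τ B) (hρ : Nests B ρ) (hpk : Pk B ρ) (hv : Letter ρ v)
    (hC : Gen B v C) {x : A} (hx : x ∈ C) :
    x ∈ (Submodule.span ℂ ((B : Set A) ∪ Elem τ B ρ v)).topologicalClosure := by
  set V := (Submodule.span ℂ ((B : Set A) ∪ Elem τ B ρ v)).topologicalClosure with hVdef
  have hV : IsClosed (V : Set A) := Submodule.isClosed_topologicalClosure _
  have m1 : ∀ b ∈ B, b ∈ V := fun b hb =>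
    Submodule.le_topologicalClosure _ (Submodule.subset_span (.inl hb))
  have m2 : ∀ {ε l R x x'}, Word τ B ρ v ε l R → x ∈ B → x' ∈ B → x * R * x' ∈ V :=
    fun hR hx hx' => Submodule.le_topologicalClosure _
      (Submodule.subset_span (.inr ⟨_, _, _, _, _, hR, hx, hx', rfl⟩))
  refine hC.ind V hV (m1 1 (one_mem _)) (fun b hb w hw => ?_) (fun a w hw => ?_) x hx
  · rw [← mul_one (b * w)]
    refine sandwich_closure hV ?_ hw
    rintro _ (hy | ⟨ε, l, R, y, y', hR, hy, hy', rfl⟩)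
    · exact m1 _ (mul_mem (mul_mem hb hy) (one_mem _))
    · simpa only [mul_assoc, mul_one] using m2 hR (mul_mem hb hy) hy'
  · rw [← mul_one (v a * w)]
    refine sandwich_closure hV ?_ hw
    rintro _ (hy | ⟨ε, l, R, y, y', hR, hy, hy', rfl⟩)
    · simpa using m2 (.one a) (one_mem _) hy
    · have key : ∀ y ∈ B, Ok τ ρ a y ε → v a * y * (R * y') ∈ V := fun y hy hok => by
        simpa only [mul_assoc, one_mul] using m2 (.cons hy hok hR) (one_mem _) hy'
      rw [mul_one, mul_assoc y, ← mul_assoc]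
      by_cases h : a = ε
      · exact key y hy (.inl h)
      · have hε : ε = !a := by cases ε <;> cases a <;> simp_all
        refine split_ind hτ hρ hpk a (sandwich V (v a) (R * y')) (isClosed_sandwich hV _ _)
          (fun N => ?_) (fun y hy hc => key y hy (.inr hc)) hy
        rw [mem_sandwich, hv.inter]
        rcases hR.strip_left with ⟨-, rfl⟩ | ⟨ε', x₁, R₁, hx₁, -, hR₁, rfl⟩
        · rw [hε, mul_assoc, ← mul_assoc (v a), hv.mul_not, one_mul]
          exact m1 _ (mul_mem (hρ.mem _ _) hy')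
        · have : ρ (!a) N * v a * (v ε * x₁ * R₁ * y') = (ρ (!a) N * x₁) * R₁ * y' := by
            rw [hε]
            simp only [mul_assoc]
            rw [← mul_assoc (v a), hv.mul_not, one_mul]
          rw [this]
          exact m2 hR₁ (mul_mem (hρ.mem _ _) hx₁) hy'

end Crest.Agent.Lib.HNN
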